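import Mathlib

/-!
Derivations of fields of characteristic `p`: existence of derivations killing a subfield that
contains the `p`-th powers, and the `p`-th power of a derivation.
-/

set_option autoImplicit false
set_option linter.unusedSectionVars false

namespace Crest.Agent.R9

open Polynomial IntermediateField

/-- Absolute derivations of a field. -/
abbrev Der (K : Type*) [Field K] := Derivation ℤ K K

variable {K : Type*} [Field K] {p : ℕ} [hp : Fact p.Prime] [CharP K p]

theorem der_pow_char (D : Der K) (a : K) : D (a ^ p) = 0 := by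
  rw [D.leibniz_pow]
  simp

theorem minpoly_eq_of_pow_mem (M : Subfield K) (hM : ∀ a : K, a ^ p ∈ M) (u : K) (hu : u ∉ M) :
    minpoly M u = X ^ p - C (⟨u ^ p, hM u⟩ : M) := by
  symm
  apply minpoly.eq_of_irreducible_of_monic
  · apply X_pow_sub_C_irreducible_of_prime hp.out
    intro b hb
    apply hu
    have h1 : (b : K) ^ p = u ^ p := by
      have := congrArg (fun x : M => (x : K)) hb
      simpa using this
    have h2 : (b : K) = u := frobenius_inj K p h1
    rw [← h2]
    exact b.2
  · simp [Subfield.algebraMap_ofSubfield]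
  · exact monic_X_pow_sub_C _ hp.out.ne_zero

theorem isIntegral_of_pow_mem (M : Subfield K) (hM : ∀ a : K, a ^ p ∈ M) (u : K) :
    IsIntegral M u := by
  refine ⟨X ^ p - C (⟨u ^ p, hM u⟩ : M), monic_X_pow_sub_C _ hp.out.ne_zero, ?_⟩
  simp [Subfield.algebraMap_ofSubfield]

theorem finrank_adjoin_of_pow_mem (M : Subfield K) (hM : ∀ a : K, a ^ p ∈ M) (u : K)
    (hu : u ∉ M) : Module.finrank M M⟮u⟯ = p := by
  rw [adjoin.finrank (isIntegral_of_pow_mem M hM u), minpoly_eq_of_pow_mem M hM u hu,
    natDegree_X_pow_sub_C]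

theorem exists_der (E : Subfield K) (hE : ∀ a : K, a ^ p ∈ E) (v : K) (hv : v ∉ E) :
    ∃ D : Der K, (∀ a ∈ E, D a = 0) ∧ D v = 1 := by
  obtain ⟨M, hEM, hM⟩ := zorn_le_nonempty₀ {M : Subfield K | v ∉ M} (by
    intro c hc hchain M0 hM0
    refine ⟨sSup c, ?_, fun z hz => le_sSup hz⟩
    intro hmem
    rw [Subfield.mem_sSup_of_directedOn ⟨M0, hM0⟩ hchain.directedOn] at hmem
    obtain ⟨N, hN, hvN⟩ := hmem
    exact hc hN hvN) E hv
  have hvM : v ∉ M := hM.prop
  have hMp : ∀ a : K, a ^ p ∈ M := fun a => hEM (hE a)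
  have htop : ∀ w : K, w ∈ M⟮v⟯ := by
    intro w
    by_cases hw : w ∈ M
    · exact (M⟮v⟯).algebraMap_mem ⟨w, hw⟩
    · have hvw : v ∈ M⟮w⟯ := by
        by_contra hcon
        have hle : M ≤ (M⟮w⟯).toSubfield := fun x hx => (M⟮w⟯).algebraMap_mem ⟨x, hx⟩
        have := hM.le_of_ge (y := (M⟮w⟯).toSubfield) hcon hle
        exact hw (this (mem_adjoin_simple_self M w))
      have hle : M⟮v⟯ ≤ M⟮w⟯ := adjoin_simple_le_iff.mpr hvw
      have : FiniteDimensional M M⟮w⟯ :=
        adjoin.finiteDimensional (isIntegral_of_pow_mem M hMp w)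
      have heq : M⟮v⟯ = M⟮w⟯ := eq_of_le_of_finrank_eq hle (by
        rw [finrank_adjoin_of_pow_mem M hMp v hvM, finrank_adjoin_of_pow_mem M hMp w hw])
      rw [heq]
      exact mem_adjoin_simple_self M w
  have hsurj : Function.Surjective (aeval v : M[X] →ₐ[M] K) := by
    intro w
    have h1 := htop w
    rw [← mem_toSubalgebra, adjoin_simple_toSubalgebra_of_isAlgebraic
      (isIntegral_of_pow_mem M hMp v).isAlgebraic, Algebra.adjoin_singleton_eq_range_aeval] at h1
    exact h1
  have hd : ∀ x : M[X], (aeval v : M[X] →ₐ[M] K) x = 0 →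
      (aeval v : M[X] →ₐ[M] K) (Polynomial.derivative' x) = 0 := by
    intro x hx
    obtain ⟨q, rfl⟩ := minpoly.dvd M v hx
    have h0 := minpoly.aeval M v
    simp only [derivative'_apply, derivative_mul, map_add, map_mul, h0, zero_mul, add_zero]
    rw [minpoly_eq_of_pow_mem M hMp v hvM]
    simp [derivative_X_pow]
  let D0 : Derivation M K K := Derivation.liftOfSurjective hsurj hd
  refine ⟨D0.restrictScalars ℤ, ?_, ?_⟩
  · intro a ha
    exact D0.map_algebraMap ⟨a, hEM ha⟩
  · have := Derivation.liftOfSurjective_apply hsurj hd X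
    simpa using this

/-- The `p`-th iterate of a derivation is a derivation. -/
theorem exists_der_pow (D : Der K) : ∃ D' : Der K, ∀ a, D' a = (D^[p]) a := by
  let T : Module.End ℤ K := D.toLinearMap
  have hT : ∀ a, T a = D a := fun a => rfl
  have hTn : ∀ (n : ℕ) a, (T ^ n) a = (D^[n]) a := by
    intro n a
    rw [Module.End.pow_apply]
    rfl
  have key : ∀ (n : ℕ) (a b : K), (D^[n]) (a * b) =
      ∑ m ∈ Finset.HasAntidiagonal.antidiagonal n, (n.choose m.1 : K) * ((D^[m.1]) a * (D^[m.2]) b) := by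
    intro n
    induction n with
    | zero => intro a b; simp
    | succ n ih =>
      intro a b
      rw [Function.iterate_succ_apply', ih, map_sum]
      have h1 := Finset.sum_antidiagonal_choose_succ_mul
        (fun i j => (D^[i]) a * (D^[j]) b) n
      rw [h1, ← Finset.sum_add_distrib]
      apply Finset.sum_congr rfl
      intro m hm
      have h2 : n.choose m.2 = n.choose m.1 := by
        have := Finset.HasAntidiagonal.mem_antidiagonal.mp hm
        rw [← this]
        exact (Nat.choose_symm_add).symm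
      rw [D.leibniz, D.leibniz, D.map_natCast, Function.iterate_succ_apply',
        Function.iterate_succ_apply', h2]
      simp only [smul_eq_mul]
      ring
  refine ⟨Derivation.mk' (T ^ p) ?_, fun a => hTn p a⟩
  intro a b
  rw [hTn, hTn, hTn, key]
  obtain ⟨q, hq⟩ : ∃ q, p = q + 1 := ⟨p - 1, (Nat.succ_pred_eq_of_pos hp.out.pos).symm⟩
  have hmid : ∀ m ∈ Finset.HasAntidiagonal.antidiagonal p, m ≠ (0, p) ∧ m ≠ (p, 0) →
      (p.choose m.1 : K) * ((D^[m.1]) a * (D^[m.2]) b) = 0 := by
    intro m hm hne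
    have hs := Finset.HasAntidiagonal.mem_antidiagonal.mp hm
    have h1 : m.1 ≠ 0 := by
      intro h
      apply hne.1
      ext <;> simp <;> omega
    have h2 : m.1 < p := by
      by_contra h
      apply hne.2
      ext <;> simp <;> omega
    have : (p.choose m.1 : K) = 0 :=
      (CharP.cast_eq_zero_iff K p _).mpr (hp.out.dvd_choose_self h1 h2)
    rw [this, zero_mul]
  rw [Finset.sum_eq_add (0, p) (p, 0) (by simp [hp.out.ne_zero.symm]) hmid (by simp) (by simp)]
  simp [mul_comm]

end Crest.Agent.R9
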