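import Crest.Agent.R9.Line

/-!
Finitely generated fields over an algebraically closed subfield: two independent derivations,
and the base field as the set of infinitely divisible elements.
-/

set_option autoImplicit false
set_option linter.unusedSectionVars false

namespace Crest.Agent.R9

/-- Dual numbers, as a synonym without algebra instances. -/
def DN (K : Type*) [Field K] : Type _ := TrivSqZeroExt K K

instance (K : Type*) [Field K] : CommRing (DN K) :=
  inferInstanceAs (CommRing (TrivSqZeroExt K K))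

theorem exists_der_of_formallySmooth {A K : Type*} [CommRing A] [Field K] [Algebra A K]
    [Algebra.FormallySmooth A K] (ψ : A →+* TrivSqZeroExt K K)
    (hψ : ∀ a, (ψ a).fst = algebraMap A K a) :
    ∃ D : Der K, ∀ a, D (algebraMap A K a) = (ψ a).snd := by
  let ψ' : A →+* DN K := ψ
  let _ : Algebra A (DN K) := ψ'.toAlgebra
  let g0 : DN K →+* K := (TrivSqZeroExt.fstHom K K K).toRingHom
  let g : DN K →ₐ[A] K := { g0 with commutes' := hψ }
  have hg : Function.Surjective g := fun x => ⟨TrivSqZeroExt.inl x, rfl⟩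
  have hg' : IsNilpotent (RingHom.ker (g : DN K →+* K)) :=
    ⟨2, TrivSqZeroExt.kerIdeal_sq K K⟩
  let φ : K →ₐ[A] DN K := Algebra.FormallySmooth.liftOfSurjective (AlgHom.id A K) g hg hg'
  let φ' : K →+* TrivSqZeroExt K K := (φ : K →+* DN K)
  have hφ : ∀ x, (φ' x).fst = x := fun x =>
    Algebra.FormallySmooth.liftOfSurjective_apply (AlgHom.id A K) g hg hg' x
  let T : K →+ K := (TrivSqZeroExt.sndHom K K).toAddMonoidHom.comp φ'.toAddMonoidHom
  have hT : ∀ x, T x = (φ' x).snd := fun x => rfl
  refine ⟨Derivation.mk' T.toIntLinearMap ?_, fun a => ?_⟩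
  · intro a b
    change T (a * b) = a • T b + b • T a
    rw [hT, hT, hT, map_mul, TrivSqZeroExt.snd_mul, hφ, hφ]
    simp [mul_comm]
  · change (φ' (algebraMap A K a)).snd = _
    have : φ' (algebraMap A K a) = ψ a := φ.commutes a
    rw [this]

open scoped IntermediateField.algebraAdjoinAdjoin in
theorem exists_der_of_sepBasis {k K ι : Type*} [Field k] [Field K] [Algebra k K] {v : ι → K}
    (hb : AlgebraicIndependent k v)
    [Algebra.IsSeparable (IntermediateField.adjoin k (Set.range v)) K] (δ : ι → K) :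
    ∃ D : Der K, ∀ i, D (v i) = δ i := by
  have h1 : Algebra.FormallySmooth (Algebra.adjoin k (Set.range v))
      (IntermediateField.adjoin k (Set.range v)) :=
    .of_isLocalization (nonZeroDivisors _)
  have h2 : Algebra.FormallyEtale (IntermediateField.adjoin k (Set.range v)) K :=
    Algebra.FormallyEtale.of_isSeparable _ K
  have h3 : Algebra.FormallySmooth (Algebra.adjoin k (Set.range v)) K :=
    .comp _ (IntermediateField.adjoin k (Set.range v)) _
  let ψ0 : MvPolynomial ι k →ₐ[k] TrivSqZeroExt K K :=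
    MvPolynomial.aeval (fun i => TrivSqZeroExt.inl (v i) + TrivSqZeroExt.inr (δ i))
  let ψ : Algebra.adjoin k (Set.range v) →ₐ[k] TrivSqZeroExt K K :=
    ψ0.comp hb.aevalEquiv.symm.toAlgHom
  have e0 : (TrivSqZeroExt.fstHom k K K).comp ψ0 = MvPolynomial.aeval v := by
    ext i
    simp [ψ0]
  obtain ⟨D, hD⟩ := exists_der_of_formallySmooth (K := K) ψ.toRingHom (by
    intro a
    obtain ⟨q, rfl⟩ := hb.aevalEquiv.surjective a
    have := DFunLike.congr_fun e0 q
    simpa [ψ] using this)
  refine ⟨D, fun i => ?_⟩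
  have := hD (hb.aevalEquiv (MvPolynomial.X i))
  simpa [ψ, ψ0] using this

variable {K : Type*} [Field K]

theorem essFiniteType_of_closure (k : Subfield K)
    (hK : ∃ s : Finset K, Subfield.closure ((k : Set K) ∪ (s : Set K)) = ⊤) :
    Algebra.EssFiniteType k K := by
  obtain ⟨s, hs⟩ := hK
  rw [← IntermediateField.fg_top_iff]
  refine ⟨s, ?_⟩
  apply IntermediateField.toSubfield_injective
  rw [IntermediateField.adjoin_toSubfield, IntermediateField.top_toSubfield, ← hs]
  congr 2
  ext x
  simp [Subfield.algebraMap_ofSubfield]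

theorem exists_not_par {p : ℕ} [Fact p.Prime] [CharP K p] (k : Subfield K) [IsAlgClosed k]
    [Algebra.EssFiniteType k K] (h2 : 2 ≤ Algebra.trdeg k K) : ∃ ξ η : KG K p, ¬ Par ξ η := by
  classical
  obtain ⟨s, hs, H⟩ := exists_isTranscendenceBasis_and_isSeparable_of_perfectField k K
  have : Algebra.IsSeparable (IntermediateField.adjoin k (Set.range ((↑) : s → K))) K := by
    convert! H <;> simp
  rw [← hs.cardinalMk_eq_trdeg, Cardinal.two_le_iff] at h2
  obtain ⟨i, j, hij⟩ := h2
  obtain ⟨D₁, hD₁⟩ := exists_der_of_sepBasis hs.1 (Pi.single i 1)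
  obtain ⟨D₂, hD₂⟩ := exists_der_of_sepBasis hs.1 (Pi.single j 1)
  refine ⟨cl K p i, cl K p j, fun h => ?_⟩
  have := h D₁ D₂
  rw [dlog_cl, dlog_cl, dlog_cl, dlog_cl, hD₁, hD₁, hD₂, hD₂] at this
  have hi : (i : K) ≠ 0 := hs.1.ne_zero i
  have hj : (j : K) ≠ 0 := hs.1.ne_zero j
  simp [hij, hij.symm, hi, hj] at this

theorem totalDegree_pow_eq {σ R : Type*} [CommRing R] [IsDomain R] (f : MvPolynomial σ R)
    (hf : f ≠ 0) (n : ℕ) : (f ^ n).totalDegree = n * f.totalDegree := by
  induction n with
  | zero => simp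
  | succ n ih =>
    rw [pow_succ, MvPolynomial.totalDegree_mul_of_isDomain (pow_ne_zero n hf) hf, ih]
    ring

theorem mem_of_divisible (k : Subfield K) [IsAlgClosed k] [Algebra.EssFiniteType k K] (f : K)
    (hf : ∀ n : ℕ, 0 < n → ∃ g : K, g ^ n = f) : f ∈ k := by
  by_contra hfk
  have htr : Transcendental k f := by
    intro halg
    have h1 := IsAlgClosed.degree_eq_one_of_irreducible k (minpoly.irreducible halg.isIntegral)
    obtain ⟨c, hc⟩ := minpoly.mem_range_of_degree_eq_one k f h1
    exact hfk (hc ▸ c.2)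
  have hind : AlgebraicIndepOn k id ({f} : Set K) := by
    rw [AlgebraicIndepOn, algebraicIndependent_unique_type_iff]
    simpa using htr
  obtain ⟨t, hft, ht⟩ := exists_isTranscendenceBasis_superset hind
  have hf' : f ∈ t := hft rfl
  set E := IntermediateField.adjoin k (Set.range ((↑) : t → K)) with hE
  have : Algebra.IsAlgebraic E K := ht.isAlgebraic_field
  have : Algebra.EssFiniteType E K := Algebra.EssFiniteType.of_comp k E K
  have : Module.Finite E K := Algebra.finite_of_essFiniteType_of_isAlgebraic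
  have hN : 0 < Module.finrank E K := Module.finrank_pos
  set N := Module.finrank E K
  obtain ⟨g, hg⟩ := hf (N + 1) (by omega)
  let fE : E := ⟨f, IntermediateField.subset_adjoin _ _ ⟨⟨f, hf'⟩, rfl⟩⟩
  have h1 : (Algebra.norm E g) ^ (N + 1) = fE ^ N := by
    rw [← map_pow, hg]
    exact Algebra.norm_algebraMap fE
  obtain ⟨r, s, hrs⟩ := (IntermediateField.mem_adjoin_range_iff k _ _).mp (Algebra.norm E g).2
  have h2 : ((Algebra.norm E g : E) : K) ^ (N + 1) = f ^ N := by
    have := congrArg (fun x : E => (x : K)) h1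
    simpa using this
  have hf0 : f ≠ 0 := by
    rintro rfl
    exact hfk (zero_mem _)
  have hs0 : MvPolynomial.aeval ((↑) : t → K) s ≠ 0 := by
    intro h0
    rw [hrs, h0, div_zero, zero_pow (by omega)] at h2
    exact pow_ne_zero N hf0 h2.symm
  have h3 : r ^ (N + 1) = MvPolynomial.X (⟨f, hf'⟩ : t) ^ N * s ^ (N + 1) := by
    apply ht.1
    rw [hrs, div_pow, div_eq_iff (pow_ne_zero _ hs0)] at h2
    simpa using h2
  have hs : s ≠ 0 := by
    rintro rfl
    exact hs0 (map_zero _)
  have hr : r ≠ 0 := by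
    rintro rfl
    rw [zero_pow (by omega)] at h3
    exact mul_ne_zero (pow_ne_zero _ (MvPolynomial.X_ne_zero _)) (pow_ne_zero _ hs) h3.symm
  have h4 := congrArg MvPolynomial.totalDegree h3
  rw [MvPolynomial.totalDegree_mul_of_isDomain (pow_ne_zero _ (MvPolynomial.X_ne_zero _))
    (pow_ne_zero _ hs), totalDegree_pow_eq _ hr, totalDegree_pow_eq _ hs,
    MvPolynomial.totalDegree_X_pow] at h4
  have h5 : (N + 1) ∣ N := by
    have : (N + 1) ∣ N + (N + 1) * s.totalDegree := h4 ▸ Dvd.intro _ rfl
    exact (Nat.dvd_add_left (Dvd.intro _ rfl)).mp this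
  have := Nat.le_of_dvd hN h5
  omega

theorem map_mem_of_ringHom {L : Type*} [Field L] (k : Subfield K) (l : Subfield L)
    [IsAlgClosed k] [IsAlgClosed l] [Algebra.EssFiniteType l L] (α : K →+* L) {x : K}
    (hx : x ∈ k) : α x ∈ l := by
  apply mem_of_divisible l
  intro n hn
  obtain ⟨z, hz⟩ := IsAlgClosed.exists_pow_nat_eq (⟨x, hx⟩ : k) hn
  refine ⟨α z, ?_⟩
  rw [← map_pow]
  congr 1
  exact congrArg (fun y : k => (y : K)) hz

open Crest.NumberTheoryR.MilnorK in
theorem par_of_mem_steinberg {p : ℕ} [Fact p.Prime] [CharP K p] (a b : KOne K p)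
    (h : TensorProduct.tmul (ZMod p) a b ∈ steinberg K p) : Par (K := K) (p := p) a b := by
  intro D D'
  let B : KG K p →+ KG K p →+ K :=
    { toFun := fun ξ =>
        { toFun := fun η => dlog p D ξ * dlog p D' η - dlog p D' ξ * dlog p D η
          map_zero' := by simp
          map_add' := fun η η' => by simp only [map_add]; ring }
      map_zero' := by ext; simp
      map_add' := fun ξ ξ' => by
        ext η
        simp only [map_add, AddMonoidHom.coe_mk, ZeroHom.coe_mk, AddMonoidHom.add_apply]
        ring }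
  have hB : ∀ (r : ZMod p) (m n : KG K p), B (r • m) n = B m (r • n) := by
    intro r m n
    simp only [B, AddMonoidHom.coe_mk, ZeroHom.coe_mk, dlog_zsmul]
    ring
  let W : TensorProduct (ZMod p) (KG K p) (KG K p) →+ K := TensorProduct.liftAddHom B hB
  let S : Submodule (ZMod p) (TensorProduct (ZMod p) (KG K p) (KG K p)) :=
    { carrier := {t | W t = 0}
      add_mem' := fun {x y} hx hy => by
        simp only [Set.mem_ofPred_eq] at hx hy ⊢
        rw [map_add, hx, hy, add_zero]
      zero_mem' := map_zero W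
      smul_mem' := fun r x hx => by
        simp only [Set.mem_ofPred_eq] at hx ⊢
        obtain ⟨n, rfl⟩ := ZMod.natCast_zmod_surjective r
        rw [Nat.cast_smul_eq_nsmul, map_nsmul, hx, nsmul_zero] }
  have hle : steinberg K p ≤ S := by
    apply Submodule.span_le.mpr
    rintro _ ⟨f, hf, hf1, rfl⟩
    change W (TensorProduct.tmul (ZMod p) (clsG K p (Units.mk0 f hf))
      (clsG K p (Units.mk0 (1 - f) hf1))) = 0
    rw [← cl_of_ne hf, ← cl_of_ne hf1]
    change dlog p D _ * dlog p D' _ - dlog p D' _ * dlog p D _ = 0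
    simp only [dlog_cl, map_sub, Derivation.map_one_eq_zero]
    ring
  have h1 : W (TensorProduct.tmul (ZMod p) (a : KG K p) (b : KG K p)) = 0 := hle h
  exact sub_eq_zero.mp h1

end Crest.Agent.R9
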