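import Crest.Agent.R9.Log

/-!
From compatibility with Steinberg relations to preservation of lines, and from preservation of
lines to a field homomorphism.
-/

set_option autoImplicit false
set_option linter.unusedSectionVars false

namespace Crest.Agent.R9

open Crest.NumberTheoryR.MilnorK

variable {K : Type*} [Field K] {L : Type*} [Field L] {p : ℕ} [hp : Fact p.Prime] [CharP K p]
  [CharP L p]

theorem par_zero_right (ξ : KG K p) : Par ξ 0 := fun D D' => by simp

theorem par_refl (ξ : KG K p) : Par ξ ξ := fun D D' => by ring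

theorem Par.add_right {ξ η ζ : KG K p} (h1 : Par ξ η) (h2 : Par ξ ζ) : Par ξ (η + ζ) :=
  fun D D' => by
    rw [map_add, map_add]
    linear_combination h1 D D' + h2 D D'

theorem Par.neg_right {ξ η : KG K p} (h1 : Par ξ η) : Par ξ (-η) :=
  fun D D' => by
    rw [map_neg, map_neg]
    linear_combination -h1 D D'

theorem Par.trans {ξ η ζ : KG K p} (h1 : Par ξ η) (h2 : Par η ζ) (hη : η ≠ 0) : Par ξ ζ := by
  obtain ⟨φ, hφ⟩ := h1.symm.exists_coeff hη
  obtain ⟨ψ, hψ⟩ := h2.exists_coeff hη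
  intro D D'
  rw [hφ D, hφ D', hψ D, hψ D']
  ring

/-- The subgroup of classes parallel to a given class. -/
def parSub (ξ : KG K p) : AddSubgroup (KG K p) where
  carrier := {η | Par ξ η}
  add_mem' := fun h1 h2 => Par.add_right h1 h2
  zero_mem' := par_zero_right ξ
  neg_mem' := fun h => Par.neg_right h

theorem exists_not_mem_two {G : Type*} [AddGroup G] (A B : AddSubgroup G) (hA : ∃ u, u ∉ A)
    (hB : ∃ u, u ∉ B) : ∃ u, u ∉ A ∧ u ∉ B := by
  obtain ⟨u, hu⟩ := hA
  obtain ⟨v, hv⟩ := hB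
  by_cases h1 : u ∈ B
  · by_cases h2 : v ∈ A
    · refine ⟨u + v, fun h => hu ?_, fun h => hv ?_⟩
      · simpa using A.sub_mem h h2
      · simpa using B.add_mem (B.neg_mem h1) h
    · exact ⟨v, h2, hv⟩
  · exact ⟨u, hu, h1⟩

theorem addHom_ext_of_not_mem {G H : Type*} [AddGroup G] [AddGroup H] (A : AddSubgroup G)
    (hA : ∃ u, u ∉ A) (f g : G →+ H) (h : ∀ x, x ∉ A → f x = g x) : f = g := by
  obtain ⟨u, hu⟩ := hA
  ext x
  by_cases hx : x ∈ A
  · have h1 : x + u ∉ A := fun h' => hu (by simpa using A.add_mem (A.neg_mem hx) h')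
    have h2 := h _ h1
    rw [map_add, map_add, h u hu] at h2
    exact add_right_cancel h2
  · exact h x hx

/-- Compatibility with the Steinberg relations, read through logarithmic differentials. -/
def Compat (Θ : KG K p → KG L p) : Prop :=
  ∀ f : K, f ≠ 0 → 1 - f ≠ 0 → Par (Θ (cl K p f)) (Θ (cl K p (1 - f)))

theorem not_par_map (Θ : KG K p ≃ₗ[ZMod p] KG L p) (hΨ : Compat Θ.symm) {ξ η : KG K p}
    (h : ¬ Par ξ η) : ¬ Par (Θ ξ) (Θ η) := by
  have hmul : ∀ V W : L, Par ξ (Θ.symm (cl L p V)) → Par ξ (Θ.symm (cl L p W)) →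
      Par ξ (Θ.symm (cl L p (V * W))) := by
    intro V W hV hW
    by_cases h1 : V = 0
    · subst h1; simpa using par_zero_right ξ
    by_cases h2 : W = 0
    · subst h2; simpa using par_zero_right ξ
    rw [cl_mul h1 h2, map_add]
    exact hV.add_right hW
  have hinv : ∀ V : L, Par ξ (Θ.symm (cl L p V)) → Par ξ (Θ.symm (cl L p V⁻¹)) := by
    intro V hV
    rw [cl_inv, map_neg]
    exact hV.neg_right
  have hneg : ∀ V : L, Par ξ (Θ.symm (cl L p V)) → Par ξ (Θ.symm (cl L p (-V))) := by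
    intro V hV
    rwa [cl_neg]
  have hF : ∀ V : L, V ∈ Fp L p → Par ξ (Θ.symm (cl L p V)) := by
    intro V hV
    rw [cl_eq_zero_iff.mpr hV, map_zero]
    exact par_zero_right ξ
  have hone : ∀ f : L, Par ξ (Θ.symm (cl L p f)) → Par ξ (Θ.symm (cl L p (1 - f))) := by
    intro f hf
    by_cases h1 : f ∈ Fp L p
    · exact hF _ (sub_mem (one_mem _) h1)
    have h2 : f ≠ 0 := by
      rintro rfl
      exact h1 (zero_mem _)
    have h3 : 1 - f ≠ 0 := by
      intro h3
      have : f = 1 := (sub_eq_zero.mp h3).symm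
      subst this
      exact h1 (one_mem _)
    refine hf.trans (hΨ f h2 h3) ?_
    intro h4
    rw [LinearEquiv.map_eq_zero_iff, cl_eq_zero_iff] at h4
    exact h1 h4
  let G : Subfield L :=
    { carrier := {V | Par ξ (Θ.symm (cl L p V))}
      mul_mem' := fun {a b} ha hb => hmul a b ha hb
      one_mem' := hF 1 (one_mem _)
      add_mem' := fun {a b} ha hb => by
        by_cases hb0 : b = 0
        · subst hb0; simpa using ha
        have : a + b = (1 - -(a * b⁻¹)) * b := by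
          field_simp
          ring
        rw [Set.mem_ofPred_eq, this]
        exact hmul _ _ (hone _ (hneg _ (hmul _ _ ha (hinv _ hb)))) hb
      zero_mem' := hF 0 (zero_mem _)
      neg_mem' := fun {a} ha => hneg a ha
      inv_mem' := fun a ha => hinv a ha }
  obtain ⟨X, hX0, hX⟩ := cl_surj (Θ ξ)
  obtain ⟨Y, hY0, hY⟩ := cl_surj (Θ η)
  have hXG : X ∈ G := by
    change Par ξ (Θ.symm (cl L p X))
    rw [hX, LinearEquiv.symm_apply_apply]
    exact par_refl ξ
  have hYG : Y ∉ G := by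
    change ¬ Par ξ (Θ.symm (cl L p Y))
    rwa [hY, LinearEquiv.symm_apply_apply]
  obtain ⟨D, hD1, hD2⟩ := exists_der G (fun a => hF _ (pow_mem_Fp a)) Y hYG
  have hξ : Θ ξ ≠ 0 := by
    intro h0
    rw [LinearEquiv.map_eq_zero_iff] at h0
    subst h0
    exact h (par_zero_right η).symm
  obtain ⟨θ, hθ⟩ := exists_dlog_eq_one hξ
  intro hpar
  have := hpar D θ
  rw [hθ, ← hX, ← hY, dlog_cl D X, dlog_cl D Y, hD1 X hXG, hD2] at this
  simp at this
  exact hY0 this.symm

theorem ne_zero_of_not_mem {x : K} (hx : x ∉ Fp K p) : x ≠ 0 := by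
  rintro rfl
  exact hx (zero_mem _)

theorem sub_one_not_mem {x : K} (hx : x ∉ Fp K p) : x - 1 ∉ Fp K p := fun h =>
  hx (by simpa using add_mem h (one_mem (Fp K p)))

theorem cl_sub_one_ne_smul {x : K} (hx : x ∉ Fp K p) (m : ZMod p) :
    cl K p (x - 1) ≠ m • cl K p x := by
  intro h
  obtain ⟨θ, -, hθ⟩ := exists_der (Fp K p) pow_mem_Fp x hx
  have h0 := ne_zero_of_not_mem hx
  have h1 := ne_zero_of_not_mem (sub_one_not_mem hx)
  have e := congrArg (dlog p θ) h
  rw [dlog_zsmul, dlog_cl, dlog_cl, map_sub, θ.map_one_eq_zero, hθ] at e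
  field_simp at e
  have hz : θ (zc K m) = 0 := by
    obtain ⟨n, rfl⟩ := ZMod.natCast_zmod_surjective m
    rw [zc, map_natCast, θ.map_natCast]
  have e' : x = (x - 1) * zc K m := by linear_combination e
  have e2 := congrArg θ e'
  rw [θ.leibniz, hz, map_sub, θ.map_one_eq_zero, hθ] at e2
  simp only [smul_eq_mul] at e2
  have e3 : zc K m = 1 := by linear_combination -e2
  rw [e3] at e'
  have : (1 : K) = 0 := by linear_combination e'
  exact one_ne_zero this

theorem config_map (Θ : KG K p ≃ₗ[ZMod p] KG L p) (hΘ : Compat Θ) (hΨ : Compat Θ.symm)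
    {x y : K} (h : ¬ Par (cl K p x) (cl K p y)) :
    ∃ m : ZMod p, m ≠ 0 ∧ (∃ T, Good (Θ (cl K p x)) (Θ (cl K p (x - 1))) m T) ∧
      (∃ T, Good (Θ (cl K p y)) (Θ (cl K p (y - 1))) m T) := by
  have hx : x ∉ Fp K p := by
    intro hx
    rw [cl_eq_zero_iff.mpr hx] at h
    exact h (par_zero_right _).symm
  have hy : y ∉ Fp K p := by
    intro hy
    rw [cl_eq_zero_iff.mpr hy] at h
    exact h (par_zero_right _)
  have hx0 := ne_zero_of_not_mem hx
  have hy0 := ne_zero_of_not_mem hy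
  have hx1 := ne_zero_of_not_mem (sub_one_not_mem hx)
  have hy1 := ne_zero_of_not_mem (sub_one_not_mem hy)
  have hxy : y - x ≠ 0 := by
    intro h0
    have : y = x := sub_eq_zero.mp h0
    subst this
    exact h (par_refl _)
  refine config (Z := Θ (cl K p (y - x))) (not_par_map Θ hΨ h) ?_ ?_ ?_ ?_ ?_ ?_
  · intro m hm
    rw [← map_smul, Θ.injective.eq_iff] at hm
    exact cl_sub_one_ne_smul hx m hm
  · intro m hm
    rw [← map_smul, Θ.injective.eq_iff] at hm
    exact cl_sub_one_ne_smul hy m hm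
  · have := hΘ x hx0 (by rw [← neg_sub]; exact neg_ne_zero.mpr hx1)
    rwa [cl_sub_comm] at this
  · have := hΘ y hy0 (by rw [← neg_sub]; exact neg_ne_zero.mpr hy1)
    rwa [cl_sub_comm] at this
  · have e : 1 - x / y = (y - x) / y := by field_simp
    have := hΘ (x / y) (div_ne_zero hx0 hy0) (by rw [e]; exact div_ne_zero hxy hy0)
    rwa [e, cl_div hx0 hy0, cl_div hxy hy0, map_sub, map_sub] at this
  · have e : 1 - (x - 1) / (y - 1) = (y - x) / (y - 1) := by
      field_simp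
      ring
    have := hΘ ((x - 1) / (y - 1)) (div_ne_zero hx1 hy1) (by rw [e]; exact div_ne_zero hxy hy1)
    rwa [e, cl_div hx1 hy1, cl_div hxy hy1, map_sub, map_sub] at this

theorem exists_uniform (Θ : KG K p ≃ₗ[ZMod p] KG L p) (hΘ : Compat Θ) (hΨ : Compat Θ.symm)
    (hK : ∃ ξ η : KG K p, ¬ Par ξ η) :
    ∃ m : ZMod p, m ≠ 0 ∧ ∀ x : K, x ∉ Fp K p →
      ∃ T, Good (Θ (cl K p x)) (Θ (cl K p (x - 1))) m T := by
  obtain ⟨ξ, η, hξη⟩ := hK
  have hprop : ∀ ζ : KG K p, ζ ≠ 0 → ∃ u, u ∉ parSub ζ := by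
    intro ζ hζ
    by_contra hcon
    push Not at hcon
    exact hξη ((Par.symm (hcon ξ)).trans (hcon η) hζ)
  obtain ⟨x0, -, rfl⟩ := cl_surj ξ
  obtain ⟨y0, -, rfl⟩ := cl_surj η
  obtain ⟨m, hm, ⟨T0, hT0⟩, -⟩ := config_map Θ hΘ hΨ hξη
  have hx0 : cl K p x0 ≠ 0 := by
    intro h0
    rw [h0] at hξη
    exact hξη (par_zero_right _).symm
  refine ⟨m, hm, fun x hx => ?_⟩
  have hx' : cl K p x ≠ 0 := fun h0 => hx (cl_eq_zero_iff.mp h0)
  obtain ⟨u, hu1, hu2⟩ := exists_not_mem_two _ _ (hprop _ hx0) (hprop _ hx')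
  obtain ⟨y, -, rfl⟩ := cl_surj u
  have hy : cl K p y ≠ 0 := by
    intro h0
    rw [h0] at hu1
    exact hu1 (zero_mem _)
  obtain ⟨m1, hm1, ⟨T1, hT1⟩, ⟨T1', hT1'⟩⟩ := config_map Θ hΘ hΨ hu1
  obtain ⟨m2, hm2, ⟨T2, hT2⟩, ⟨T2', hT2'⟩⟩ := config_map Θ hΘ hΨ hu2
  have e1 : m = m1 := (Good.unique (by simpa using hx0) hT0 hm hT1 hm1).2
  have e2 : m1 = m2 := (Good.unique (by simpa using hy) hT1' hm1 hT2' hm2).2
  exact ⟨T2, by rw [e1, e2]; exact hT2⟩

/-- Preservation of the lines through `1`. -/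
def LineMap (Φ : KG K p → KG L p) : Prop :=
  ∀ x : K, x ∉ Fp K p → ∃ T, Good (Φ (cl K p x)) (Φ (cl K p (x - 1))) 1 T

theorem span_pres (Φ : KG K p ≃ₗ[ZMod p] KG L p) (h : LineMap Φ) {x y z : K} {X Y Z : L}
    (hx0 : x ≠ 0) (hy0 : y ≠ 0) (hz0 : z ≠ 0) (hX0 : X ≠ 0) (hY0 : Y ≠ 0) (hZ0 : Z ≠ 0)
    (hX : cl L p X = Φ (cl K p x)) (hY : cl L p Y = Φ (cl K p y))
    (hZ : cl L p Z = Φ (cl K p z)) {c₁ c₂ : K} (hc₁ : c₁ ∈ Fp K p) (hc₂ : c₂ ∈ Fp K p)
    (hz : z = c₁ * x + c₂ * y) :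
    ∃ r ∈ Fp L p, ∃ s ∈ Fp L p, Z = r * X + s * Y := by
  have hcase : ∀ c ∈ Fp K p, z = c * y → ∃ r ∈ Fp L p, ∃ s ∈ Fp L p, Z = r * X + s * Y := by
    intro c hc hzc
    have hc0 : c ≠ 0 := by
      rintro rfl
      exact hz0 (by rw [hzc, zero_mul])
    have : cl L p Z = cl L p Y := by rw [hZ, hY, hzc, cl_mul_of_mem hc hc0]
    obtain ⟨g, hg, -, hg'⟩ := (cl_eq_iff hZ0 hY0).mp this
    exact ⟨0, zero_mem _, g, hg, by rw [hg']; ring⟩
  by_cases h2 : c₂ = 0
  · subst h2
    have hc0 : c₁ ≠ 0 := by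
      rintro rfl
      exact hz0 (by rw [hz]; ring)
    have : cl L p Z = cl L p X := by
      rw [hZ, hX, hz, zero_mul, add_zero, cl_mul_of_mem hc₁ hc0]
    obtain ⟨g, hg, -, hg'⟩ := (cl_eq_iff hZ0 hX0).mp this
    exact ⟨g, hg, 0, zero_mem _, by rw [hg']; ring⟩
  set u : K := -(c₁ * x) / (c₂ * y) with hu
  have hzu : z = -c₂ * (y * (u - 1)) := by
    rw [hu, hz]
    field_simp
    ring
  by_cases hum : u ∈ Fp K p
  · exact hcase (-c₂ * (u - 1)) (mul_mem (neg_mem hc₂) (sub_mem hum (one_mem _)))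
      (by rw [hzu]; ring)
  have h1 : c₁ ≠ 0 := by
    rintro rfl
    apply hum
    rw [hu]
    simp
  obtain ⟨T, hT0, hT1, hT2, hT3⟩ := h u hum
  rw [one_smul] at hT2 hT3
  have hclu : cl K p u = cl K p x - cl K p y := by
    rw [hu, cl_div (neg_ne_zero.mpr (mul_ne_zero h1 hx0)) (mul_ne_zero h2 hy0), cl_neg,
      cl_mul_of_mem hc₁ h1, cl_mul_of_mem hc₂ h2]
  have e1 : cl L p T = cl L p (X / Y) := by
    rw [hT2, hclu, map_sub, cl_div hX0 hY0, hX, hY]
  obtain ⟨g, hg, -, hg'⟩ := (cl_eq_iff hT0 (div_ne_zero hX0 hY0)).mp e1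
  have e2 : cl L p Z = cl L p (Y * (T - 1)) := by
    rw [hZ, hzu, cl_mul_of_mem (neg_mem hc₂) (neg_ne_zero.mpr h2),
      cl_mul hy0 (ne_zero_of_not_mem (sub_one_not_mem hum)), map_add, cl_mul hY0 hT1, hY, hT3]
  obtain ⟨g', hg2, -, hg2'⟩ := (cl_eq_iff hZ0 (mul_ne_zero hY0 hT1)).mp e2
  refine ⟨g' * g, mul_mem hg2 hg, -g', neg_mem hg2, ?_⟩
  rw [hg2', hg']
  field_simp
  ring

variable (p) in
/-- `1, x, y` are linearly independent over the `p`-th powers. -/
def Ind (x y : K) : Prop :=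
  ∀ c₀ ∈ Fp K p, ∀ c₁ ∈ Fp K p, ∀ c₂ ∈ Fp K p, c₀ + c₁ * x + c₂ * y = 0 → c₁ = 0 ∧ c₂ = 0

variable (p) in
/-- The span of `1, z, t` over the `p`-th powers. -/
def S3 (z t : K) : AddSubgroup K where
  carrier := {u | ∃ a ∈ Fp K p, ∃ b ∈ Fp K p, ∃ c ∈ Fp K p, u = a + b * z + c * t}
  add_mem' := by
    rintro _ _ ⟨a, ha, b, hb, c, hc, rfl⟩ ⟨a', ha', b', hb', c', hc', rfl⟩
    exact ⟨a + a', add_mem ha ha', b + b', add_mem hb hb', c + c', add_mem hc hc', by ring⟩
  zero_mem' := ⟨0, zero_mem _, 0, zero_mem _, 0, zero_mem _, by ring⟩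
  neg_mem' := by
    rintro _ ⟨a, ha, b, hb, c, hc, rfl⟩
    exact ⟨-a, neg_mem ha, -b, neg_mem hb, -c, neg_mem hc, by ring⟩

theorem mem_S3 {z t u : K} : u ∈ S3 p z t ↔
    ∃ a ∈ Fp K p, ∃ b ∈ Fp K p, ∃ c ∈ Fp K p, u = a + b * z + c * t := Iff.rfl

theorem extend_add {W : Type*} [AddCommGroup W] (a : K → W)
    (hsub : ∀ x y, Ind p x y → a (x - y) = a x - a y) (H : ∀ z t : K, ∃ u, u ∉ S3 p z t) :
    ∃ α : K →+ W, ∀ x, x ∉ Fp K p → α x = a x := by
  have claimA : ∀ z t u : K, t ∉ S3 p z 0 → u ∉ S3 p z t → a (z + t) - a t = a (z + u) - a u := by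
    intro z t u ht hu
    have i1 : Ind p t u := by
      intro c₀ h₀ c₁ h₁ c₂ h₂ e
      have e2 : c₂ = 0 := by
        by_contra hne
        apply hu
        refine ⟨-c₀ / c₂, div_mem (neg_mem h₀) h₂, 0, zero_mem _, -c₁ / c₂,
          div_mem (neg_mem h₁) h₂, ?_⟩
        field_simp
        linear_combination e
      refine ⟨?_, e2⟩
      by_contra hne
      apply ht
      refine ⟨-c₀ / c₁, div_mem (neg_mem h₀) h₁, 0, zero_mem _, 0, zero_mem _, ?_⟩
      rw [e2] at e
      field_simp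
      linear_combination e
    have i2 : Ind p (z + t) (z + u) := by
      intro c₀ h₀ c₁ h₁ c₂ h₂ e
      have e2 : c₂ = 0 := by
        by_contra hne
        apply hu
        refine ⟨-c₀ / c₂, div_mem (neg_mem h₀) h₂, -(c₁ + c₂) / c₂,
          div_mem (neg_mem (add_mem h₁ h₂)) h₂, -c₁ / c₂, div_mem (neg_mem h₁) h₂, ?_⟩
        field_simp
        linear_combination e
      refine ⟨?_, e2⟩
      by_contra hne
      apply ht
      refine ⟨-c₀ / c₁, div_mem (neg_mem h₀) h₁, -1, neg_mem (one_mem _), 0, zero_mem _, ?_⟩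
      rw [e2] at e
      field_simp
      linear_combination e
    have e1 := hsub _ _ i1
    have e2 := hsub _ _ i2
    rw [add_sub_add_left_eq_sub, e1] at e2
    linear_combination (norm := abel) -e2
  have claimB : ∀ z t t' : K, t ∉ S3 p z 0 → t' ∉ S3 p z 0 →
      a (z + t) - a t = a (z + t') - a t' := by
    intro z t t' ht ht'
    obtain ⟨u, hu1, hu2⟩ := exists_not_mem_two _ _ (H z t) (H z t')
    rw [claimA z t u ht hu1, claimA z t' u ht' hu2]
  choose τ hτ using H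
  let α0 : K → W := fun z => a (z + τ z 0) - a (τ z 0)
  have hα0 : ∀ z t : K, t ∉ S3 p z 0 → α0 z = a (z + t) - a t :=
    fun z t ht => claimB z _ t (hτ z 0) ht
  refine ⟨AddMonoidHom.mk' α0 ?_, ?_⟩
  · intro z z'
    have ht := hτ z z'
    set t := τ z z'
    have h1 : t ∉ S3 p (z + z') 0 := by
      rintro ⟨a, ha, b, hb, c, hc, e⟩
      exact ht ⟨a, ha, b, hb, b, hb, by rw [e]; ring⟩
    have h2 : z' + t ∉ S3 p z 0 := by
      rintro ⟨a, ha, b, hb, c, hc, e⟩
      exact ht ⟨a, ha, b, hb, -1, neg_mem (one_mem _), by linear_combination e⟩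
    have h3 : t ∉ S3 p z' 0 := by
      rintro ⟨a, ha, b, hb, c, hc, e⟩
      exact ht ⟨a, ha, 0, zero_mem _, b, hb, by rw [e]; ring⟩
    rw [hα0 _ _ h1, hα0 _ _ h2, hα0 _ _ h3, add_assoc]
    abel
  · intro x hx
    have ht := hτ x 0
    set t := τ x 0
    have i : Ind p (x + t) t := by
      intro c₀ h₀ c₁ h₁ c₂ h₂ e
      have e2 : c₁ + c₂ = 0 := by
        by_contra hne
        apply ht
        refine ⟨-c₀ / (c₁ + c₂), div_mem (neg_mem h₀) (add_mem h₁ h₂), -c₁ / (c₁ + c₂),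
          div_mem (neg_mem h₁) (add_mem h₁ h₂), 0, zero_mem _, ?_⟩
        field_simp
        linear_combination e
      have e3 : c₁ = 0 := by
        by_contra hne
        apply hx
        have : x = -c₀ / c₁ := by
          field_simp
          linear_combination e - t * e2
        rw [this]
        exact div_mem (neg_mem h₀) h₁
      exact ⟨e3, by linear_combination e2 - e3⟩
    have := hsub _ _ i
    rw [add_sub_cancel_right] at this
    exact this.symm

theorem Ind.left {x y : K} (h : Ind p x y) : x ∉ Fp K p := fun hx =>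
  one_ne_zero (h (-x) (neg_mem hx) 1 (one_mem _) 0 (zero_mem _) (by ring)).1

theorem Ind.right {x y : K} (h : Ind p x y) : y ∉ Fp K p := fun hy =>
  one_ne_zero (h (-y) (neg_mem hy) 0 (zero_mem _) 1 (one_mem _) (by ring)).2

theorem Ind.sub {x y : K} (h : Ind p x y) : x - y ∉ Fp K p := fun hy =>
  one_ne_zero (h (-(x - y)) (neg_mem hy) 1 (one_mem _) (-1) (neg_mem (one_mem _)) (by ring)).1

theorem Ind.div {x y : K} (h : Ind p x y) : x / y ∉ Fp K p := fun hy => by
  have hy0 := ne_zero_of_not_mem h.right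
  exact one_ne_zero (h 0 (zero_mem _) 1 (one_mem _) (-(x / y)) (neg_mem hy)
    (by field_simp; ring)).1

theorem exists_ringHom (Φ : KG K p ≃ₗ[ZMod p] KG L p) (h : LineMap Φ) (h' : LineMap Φ.symm)
    (H : ∀ z t : K, ∃ u, u ∉ S3 p z t) :
    ∃ α : K →+* L, ∀ x, cl L p (α x) = Φ (cl K p x) := by
  classical
  choose a0 ha0 using h
  let a : K → L := fun x => if hx : x ∈ Fp K p then 0 else a0 x hx
  have ha : ∀ x, x ∉ Fp K p → a x ≠ 0 ∧ a x - 1 ≠ 0 ∧ cl L p (a x) = Φ (cl K p x) ∧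
      cl L p (a x - 1) = Φ (cl K p (x - 1)) := by
    intro x hx
    have := ha0 x hx
    simp only [Good, one_smul] at this
    simpa only [a, dif_neg hx] using this
  have h : LineMap Φ := fun x hx => ⟨a0 x hx, ha0 x hx⟩
  have hind : ∀ x y, Ind p x y → Ind p (a x) (a y) := by
    intro x y hxy c₀ h₀ c₁ h₁ c₂ h₂ e
    obtain ⟨hX0, -, hX, -⟩ := ha x hxy.left
    obtain ⟨hY0, -, hY, -⟩ := ha y hxy.right
    have e2 : c₂ = 0 := by
      by_contra hne
      have hY' : a y = (-c₀ / c₂) * 1 + (-c₁ / c₂) * a x := by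
        field_simp
        linear_combination e
      obtain ⟨r, hr, s, hs, hrs⟩ := span_pres Φ.symm h' (X := 1) (Y := x) (Z := y)
        one_ne_zero hX0 hY0 one_ne_zero (ne_zero_of_not_mem hxy.left)
        (ne_zero_of_not_mem hxy.right) (by simp) (by rw [hX]; simp) (by rw [hY]; simp)
        (div_mem (neg_mem h₀) h₂) (div_mem (neg_mem h₁) h₂) hY'
      have := (hxy r hr s hs (-1) (neg_mem (one_mem _)) (by linear_combination -hrs)).2
      simp at this
    refine ⟨?_, e2⟩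
    by_contra hne
    have : a x = -c₀ / c₁ := by
      rw [e2] at e
      field_simp
      linear_combination e
    have hm : a x ∈ Fp L p := by
      rw [this]
      exact div_mem (neg_mem h₀) h₁
    rw [← cl_eq_zero_iff, hX, LinearEquiv.map_eq_zero_iff, cl_eq_zero_iff] at hm
    exact hxy.left hm
  have step1 : ∀ x y, Ind p x y → a (x / y) = a x / a y ∧
      cl L p (a x - a y) = Φ (cl K p (x - y)) := by
    intro x y hxy
    obtain ⟨hX0, hX1, hX, hX'⟩ := ha x hxy.left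
    obtain ⟨hY0, hY1, hY, hY'⟩ := ha y hxy.right
    obtain ⟨hT0, hT1, hT, hT'⟩ := ha (x / y) hxy.div
    have hx0 := ne_zero_of_not_mem hxy.left
    have hy0 := ne_zero_of_not_mem hxy.right
    have e1 : cl L p (a (x / y)) = cl L p (a x / a y) := by
      rw [hT, cl_div hx0 hy0, map_sub, cl_div hX0 hY0, hX, hY]
    obtain ⟨c, hc, -, hc'⟩ := (cl_eq_iff hT0 (div_ne_zero hX0 hY0)).mp e1
    have e2 : cl L p (a y * (a (x / y) - 1)) = Φ (cl K p (x - y)) := by
      have : x - y = y * (x / y - 1) := by field_simp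
      rw [this, cl_mul hY0 hT1, cl_mul hy0 (ne_zero_of_not_mem (sub_one_not_mem hxy.div)),
        map_add, hY, hT']
    obtain ⟨r, hr, s, hs, hrs⟩ := span_pres Φ h (x := x - 1) (y := y - 1) (z := x - y)
      (ne_zero_of_not_mem (sub_one_not_mem hxy.left))
      (ne_zero_of_not_mem (sub_one_not_mem hxy.right)) (ne_zero_of_not_mem hxy.sub)
      hX1 hY1 (mul_ne_zero hY0 hT1) hX' hY' e2 (one_mem _) (neg_mem (one_mem _)) (by ring)
    have e3 : a y * (a (x / y) - 1) = c * a x - a y := by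
      rw [hc']
      field_simp
    have e4 : (r + s) + (c - r) * a x + (-1 - s) * a y = 0 := by
      linear_combination hrs - e3
    obtain ⟨e5, e6⟩ := hind x y hxy _ (add_mem hr hs) _ (sub_mem hc hr) _
      (sub_mem (neg_mem (one_mem _)) hs) e4
    have e7 : c = 1 := by
      rw [e5, e6] at e4
      linear_combination e4 + e5 + e6
    rw [e7, one_mul] at hc' e3
    exact ⟨hc', by rw [← e3, e2]⟩
  have step2 : ∀ x y, Ind p x y → a (x - y) = a x - a y := by
    intro x y hxy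
    obtain ⟨hX0, hX1, hX, hX'⟩ := ha x hxy.left
    obtain ⟨hY0, hY1, hY, hY'⟩ := ha y hxy.right
    obtain ⟨hT0, hT1, hT, hT'⟩ := ha (x - y) hxy.sub
    have hXY : a x - a y ≠ 0 := ne_zero_of_not_mem (hind x y hxy).sub
    have e1 : cl L p (a (x - y)) = cl L p (a x - a y) := by rw [hT, (step1 x y hxy).2]
    obtain ⟨c, hc, -, hc'⟩ := (cl_eq_iff hT0 hXY).mp e1
    obtain ⟨r, hr, s, hs, hrs⟩ := span_pres Φ h (x := x - 1) (y := y) (z := x - y - 1)
      (ne_zero_of_not_mem (sub_one_not_mem hxy.left))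
      (ne_zero_of_not_mem hxy.right) (ne_zero_of_not_mem (sub_one_not_mem hxy.sub))
      hX1 hY0 hT1 hX' hY hT' (one_mem _) (neg_mem (one_mem _)) (by ring)
    have e4 : (r - 1) + (c - r) * a x + (-c - s) * a y = 0 := by
      linear_combination hrs - hc'
    obtain ⟨e5, e6⟩ := hind x y hxy _ (sub_mem hr (one_mem _)) _ (sub_mem hc hr) _
      (sub_mem (neg_mem hc) hs) e4
    have e7 : c = 1 := by
      rw [e5, e6] at e4
      linear_combination e4 + e5
    rw [hc', e7, one_mul]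
  obtain ⟨α, hα⟩ := extend_add a step2 H
  have hFne : ∃ u, u ∉ (Fp K p).toAddSubgroup := by
    obtain ⟨u, hu⟩ := H 0 0
    exact ⟨u, fun hm => hu ⟨u, hm, 0, zero_mem _, 0, zero_mem _, by ring⟩⟩
  have hmul1 : ∀ y, y ∉ Fp K p → ∀ u, α (u * y) = α u * α y := by
    intro y hy
    have hy0 := ne_zero_of_not_mem hy
    have := addHom_ext_of_not_mem (S3 p y⁻¹ 0) (H _ _) (α.comp (AddMonoidHom.mulRight y))
      ((AddMonoidHom.mulRight (α y)).comp α) (by
        intro u hu
        have hxy : Ind p (u * y) y := by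
          intro c₀ h₀ c₁ h₁ c₂ h₂ e
          have e1 : c₁ = 0 := by
            by_contra hne
            apply hu
            refine ⟨-c₂ / c₁, div_mem (neg_mem h₂) h₁, -c₀ / c₁, div_mem (neg_mem h₀) h₁, 0,
              zero_mem _, ?_⟩
            field_simp
            linear_combination e
          refine ⟨e1, ?_⟩
          by_contra hne
          apply hy
          have : y = -c₀ / c₂ := by
            rw [e1] at e
            field_simp
            linear_combination e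
          rw [this]
          exact div_mem (neg_mem h₀) h₂
        have e1 := (step1 _ _ hxy).1
        have hu' : u ∉ Fp K p := by
          have := hxy.div
          rwa [mul_div_cancel_right₀ _ hy0] at this
        rw [mul_div_cancel_right₀ _ hy0] at e1
        simp only [AddMonoidHom.comp_apply, AddMonoidHom.mulRight_apply]
        rw [hα _ hxy.left, hα _ hu', hα _ hy, e1, div_mul_cancel₀ _ (ha y hy).1])
    intro u
    exact DFunLike.congr_fun this u
  have hmul : ∀ u y, α (u * y) = α u * α y := by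
    intro u
    have := addHom_ext_of_not_mem (Fp K p).toAddSubgroup hFne (α.comp (AddMonoidHom.mulLeft u))
      ((AddMonoidHom.mulLeft (α u)).comp α) (fun y hy => hmul1 y hy u)
    intro y
    exact DFunLike.congr_fun this y
  have hone : α 1 = 1 := by
    obtain ⟨y, hy⟩ := hFne
    have e := hmul 1 y
    rw [one_mul] at e
    have hy0 : α y ≠ 0 := by
      rw [hα y hy]
      exact (ha y hy).1
    exact (mul_eq_right₀ hy0).mp e.symm
  let β : K →+* L := { α with map_one' := hone, map_mul' := hmul }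
  refine ⟨β, fun x => ?_⟩
  by_cases hx : x ∈ Fp K p
  · rw [cl_eq_zero_iff.mpr hx, map_zero, cl_eq_zero_iff]
    obtain ⟨b, rfl⟩ := mem_Fp.mp hx
    rw [map_pow]
    exact pow_mem_Fp _
  · change cl L p (α x) = _
    rw [hα x hx]
    exact (ha x hx).2.2.1

theorem exists_not_mem_S3 (hK : ∃ ξ η : KG K p, ¬ Par ξ η) (z t : K) : ∃ u, u ∉ S3 p z t := by
  classical
  obtain ⟨ξ, η, hξη⟩ := hK
  obtain ⟨θ₁, θ₂, a11, a12, a21, a22⟩ := exists_dual_of_not_par hξη
  obtain ⟨x, hx, rfl⟩ := cl_surj ξ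
  obtain ⟨y, hy, rfl⟩ := cl_surj η
  rw [dlog_cl] at a11 a12 a21 a22
  field_simp at a11 a12 a21 a22
  simp only [mul_zero] at a12 a21
  have hli : LinearIndependent (Fp K p) ![1, x, y, x * y] := by
    rw [Fintype.linearIndependent_iff]
    intro g hg
    simp only [Fin.sum_univ_four, Matrix.cons_val_zero, Matrix.cons_val_one, Matrix.cons_val,
      Subfield.smul_def, smul_eq_mul] at hg
    have d : ∀ (D : Der K) (i : Fin 4), D (g i : K) = 0 := fun D i => der_of_mem D (g i).2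
    have e1 := congrArg θ₂ hg
    simp only [map_add, Derivation.leibniz, smul_eq_mul, d, a21, a22, map_zero,
      Derivation.map_one_eq_zero] at e1
    have e1' : (g 2 : K) + g 3 * x = 0 := by
      apply mul_left_cancel₀ hy
      linear_combination e1
    have e2 := congrArg θ₁ e1'
    simp only [map_add, Derivation.leibniz, smul_eq_mul, d, a11, map_zero] at e2
    have g3 : (g 3 : K) = 0 := by
      apply mul_left_cancel₀ hx
      linear_combination e2
    have g2 : (g 2 : K) = 0 := by rw [g3] at e1'; linear_combination e1'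
    rw [g2, g3] at hg
    have e3 := congrArg θ₁ hg
    simp only [map_add, Derivation.leibniz, smul_eq_mul, d, a11, map_zero,
      Derivation.map_one_eq_zero] at e3
    have g1 : (g 1 : K) = 0 := by
      apply mul_left_cancel₀ hx
      linear_combination e3
    have g0 : (g 0 : K) = 0 := by rw [g1] at hg; linear_combination hg
    intro i
    fin_cases i
    · exact Subtype.ext g0
    · exact Subtype.ext g1
    · exact Subtype.ext g2
    · exact Subtype.ext g3
  by_contra hcon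
  push Not at hcon
  have hspan : Submodule.span (Fp K p) (({1, z, t} : Finset K) : Set K) = ⊤ := by
    rw [eq_top_iff]
    intro u _
    obtain ⟨a, ha, b, hb, c, hc, rfl⟩ := hcon u
    have m1 : (1 : K) ∈ Submodule.span (Fp K p) (({1, z, t} : Finset K) : Set K) :=
      Submodule.subset_span (by simp)
    have m2 : z ∈ Submodule.span (Fp K p) (({1, z, t} : Finset K) : Set K) :=
      Submodule.subset_span (by simp)
    have m3 : t ∈ Submodule.span (Fp K p) (({1, z, t} : Finset K) : Set K) :=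
      Submodule.subset_span (by simp)
    have := add_mem (add_mem (Submodule.smul_mem _ (⟨a, ha⟩ : Fp K p) m1)
      (Submodule.smul_mem _ (⟨b, hb⟩ : Fp K p) m2)) (Submodule.smul_mem _ (⟨c, hc⟩ : Fp K p) m3)
    simpa [Subfield.smul_def] using this
  have h1 := linearIndependent_le_span_finset _ hli _ hspan
  have h2 : ({1, z, t} : Finset K).card ≤ 3 := Finset.card_le_three
  have h3 : ((4 : ℕ) : Cardinal.{0}) ≤ (({1, z, t} : Finset K).card : Cardinal.{0}) := by
    simpa using h1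
  have h4 : 4 ≤ ({1, z, t} : Finset K).card := by exact_mod_cast h3
  omega

theorem ringHom_unique (Θ : KG K p ≃ₗ[ZMod p] KG L p) (hF : ∃ u, u ∉ Fp K p) {α β : K →+* L}
    {m m' : ZMod p} (hm : m ≠ 0) (hm' : m' ≠ 0)
    (hα : ∀ x, cl L p (α x) = m • Θ (cl K p x)) (hβ : ∀ x, cl L p (β x) = m' • Θ (cl K p x)) :
    α = β := by
  have hg : ∀ (γ : K →+* L) (n : ZMod p), (∀ x, cl L p (γ x) = n • Θ (cl K p x)) →
      ∀ x, x ∉ Fp K p → Good (Θ (cl K p x)) (Θ (cl K p (x - 1))) n (γ x) := by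
    intro γ n hγ x hx
    have e : γ x - 1 = γ (x - 1) := by simp
    refine ⟨(map_ne_zero γ).mpr (ne_zero_of_not_mem hx), ?_, hγ x, ?_⟩
    · rw [e]
      exact (map_ne_zero γ).mpr (ne_zero_of_not_mem (sub_one_not_mem hx))
    · rw [e, hγ]
  have := addHom_ext_of_not_mem (Fp K p).toAddSubgroup hF α.toAddMonoidHom β.toAddMonoidHom (by
    intro x hx
    have hx' : Θ (cl K p x) ≠ 0 := by
      rw [Ne, LinearEquiv.map_eq_zero_iff, cl_eq_zero_iff]
      exact hx
    exact (Good.unique hx' (hg α m hα x hx) hm (hg β m' hβ x hx) hm').1)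
  ext x
  exact DFunLike.congr_fun this x

theorem exists_not_mem_Fp (hK : ∃ ξ η : KG K p, ¬ Par ξ η) : ∃ u, u ∉ Fp K p := by
  obtain ⟨u, hu⟩ := exists_not_mem_S3 hK 0 0
  exact ⟨u, fun hm => hu ⟨u, hm, 0, zero_mem _, 0, zero_mem _, by ring⟩⟩

theorem exists_ringEquiv (Θ : KG K p ≃ₗ[ZMod p] KG L p) (hΘ : Compat Θ) (hΨ : Compat Θ.symm)
    (hK : ∃ ξ η : KG K p, ¬ Par ξ η) :
    ∃ α : K ≃+* L, ∃ m : ZMod p, m ≠ 0 ∧ ∀ x, cl L p (α x) = m • Θ (cl K p x) := by
  have hL : ∃ ξ η : KG L p, ¬ Par ξ η := by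
    obtain ⟨ξ, η, h⟩ := hK
    exact ⟨_, _, not_par_map Θ hΨ h⟩
  obtain ⟨m, hm, h1⟩ := exists_uniform Θ hΘ hΨ hK
  obtain ⟨m', hm', h2⟩ := exists_uniform Θ.symm hΨ hΘ hL
  have hmm : m' * m = 1 := by
    obtain ⟨x, hx⟩ := exists_not_mem_Fp hK
    have hx' : cl K p x ≠ 0 := fun h0 => hx (cl_eq_zero_iff.mp h0)
    obtain ⟨T, hT0, hT1, hT2, hT3⟩ := h1 x hx
    have hT : T ∉ Fp L p := by
      rw [← cl_eq_zero_iff, hT2]
      simp [hm, hx']
    obtain ⟨x', g0, g1, g2, g3⟩ := h2 T hT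
    rw [hT2, map_smul, LinearEquiv.symm_apply_apply, smul_smul] at g2
    rw [hT3, map_smul, LinearEquiv.symm_apply_apply, smul_smul] at g3
    have gg : Good (cl K p x) (cl K p (x - 1)) 1 x :=
      ⟨ne_zero_of_not_mem hx, ne_zero_of_not_mem (sub_one_not_mem hx), by simp, by simp⟩
    exact (Good.unique hx' ⟨g0, g1, g2, g3⟩ (mul_ne_zero hm' hm) gg one_ne_zero).2
  let Φ : KG K p ≃ₗ[ZMod p] KG L p := Θ.trans (LinearEquiv.smulOfNeZero (ZMod p) _ m hm)
  have hΦ : ∀ ξ, Φ ξ = m • Θ ξ := fun ξ => rfl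
  have hΦ' : ∀ η, Φ.symm η = m' • Θ.symm η := by
    intro η
    rw [LinearEquiv.symm_apply_eq, hΦ, map_smul, LinearEquiv.apply_symm_apply, smul_smul,
      mul_comm, hmm, one_smul]
  have l1 : LineMap Φ := by
    intro x hx
    obtain ⟨T, g0, g1, g2, g3⟩ := h1 x hx
    exact ⟨T, g0, g1, by rw [one_smul, hΦ, g2], by rw [one_smul, hΦ, g3]⟩
  have l2 : LineMap Φ.symm := by
    intro x hx
    obtain ⟨T, g0, g1, g2, g3⟩ := h2 x hx
    exact ⟨T, g0, g1, by rw [one_smul, hΦ', g2], by rw [one_smul, hΦ', g3]⟩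
  obtain ⟨α, hα⟩ := exists_ringHom Φ l1 l2 (exists_not_mem_S3 hK)
  obtain ⟨β, hβ⟩ := exists_ringHom Φ.symm l2 l1 (exists_not_mem_S3 hL)
  have e1 : β.comp α = RingHom.id K :=
    ringHom_unique (LinearEquiv.refl (ZMod p) (KG K p)) (exists_not_mem_Fp hK) one_ne_zero
      one_ne_zero (fun x => by simp [hα, hβ]) (fun x => by simp)
  have e2 : α.comp β = RingHom.id L :=
    ringHom_unique (LinearEquiv.refl (ZMod p) (KG L p)) (exists_not_mem_Fp hL) one_ne_zero
      one_ne_zero (fun x => by simp [hα, hβ]) (fun x => by simp)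
  exact ⟨RingEquiv.ofRingHom α β e2 e1, m, hm, fun x => by rw [← hΦ, ← hα]; rfl⟩

end Crest.Agent.R9
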