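import Crest.Prelude.Def_MilnorK
import Crest.Agent.R9.Der

/-!
Logarithmic derivatives on `Kˣ / (Kˣ)^p`, the parallelism relation, and the configuration lemma.
-/

set_option autoImplicit false
set_option linter.unusedSectionVars false

namespace Crest.Agent.R9

open Crest.NumberTheoryR.MilnorK

section defs

variable (K : Type*) [Field K] (p : ℕ)

/-- A synonym of `KOne K p` with a single additive group instance. -/
def KG : Type _ := KOne K p

noncomputable instance : AddCommGroup (KG K p) :=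
  QuotientAddGroup.Quotient.addCommGroup (pMultiples K p)

noncomputable instance : Module (ZMod p) (KG K p) := KOne.instModule K p

/-- The class of a unit in the synonym. -/
def clsG (u : Kˣ) : KG K p := cls K p u

open Classical in
/-- The class of an element of the field (zero is sent to zero). -/
noncomputable def cl (x : K) : KG K p := if h : x = 0 then 0 else clsG K p (Units.mk0 x h)

/-- The subfield of `p`-th powers. -/
noncomputable def Fp [Fact p.Prime] [CharP K p] : Subfield K := (frobenius K p).fieldRange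

end defs

variable {K : Type*} [Field K] {p : ℕ} [hp : Fact p.Prime] [CharP K p]

theorem mem_Fp {a : K} : a ∈ Fp K p ↔ ∃ b : K, b ^ p = a := by
  simp [Fp, frobenius_def]

theorem pow_mem_Fp (a : K) : a ^ p ∈ Fp K p := mem_Fp.mpr ⟨a, rfl⟩

theorem cl_of_ne {x : K} (h : x ≠ 0) : cl K p x = clsG K p (Units.mk0 x h) := by
  simp [cl, h]

theorem cl_unit (u : Kˣ) : cl K p (u : K) = clsG K p u := by
  rw [cl_of_ne u.ne_zero]
  simp

@[simp] theorem cl_zero : cl K p 0 = 0 := by simp [cl]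

theorem cls_mul (u v : Kˣ) : clsG K p (u * v) = clsG K p u + clsG K p v := rfl

theorem cl_mul {x y : K} (hx : x ≠ 0) (hy : y ≠ 0) :
    cl K p (x * y) = cl K p x + cl K p y := by
  rw [cl_of_ne hx, cl_of_ne hy, cl_of_ne (mul_ne_zero hx hy), ← cls_mul, Units.mk0_mul]

theorem cl_surj (ξ : KG K p) : ∃ x : K, x ≠ 0 ∧ cl K p x = ξ := by
  obtain ⟨z, rfl⟩ := QuotientAddGroup.mk_surjective (s := pMultiples K p) ξ
  exact ⟨(Additive.toMul z : Kˣ), Units.ne_zero _, cl_unit _⟩

theorem cl_eq_zero_iff {x : K} : cl K p x = 0 ↔ x ∈ Fp K p := by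
  by_cases hx : x = 0
  · subst hx
    simp
  rw [cl_of_ne hx, mem_Fp]
  refine (QuotientAddGroup.eq_zero_iff (N := pMultiples K p) _).trans ?_
  constructor
  · rintro ⟨y, hy⟩
    refine ⟨(Additive.toMul y : Kˣ), ?_⟩
    have := congrArg (fun z : Additive Kˣ => ((Additive.toMul z : Kˣ) : K)) hy
    simpa using this
  · rintro ⟨b, hb⟩
    have hb0 : b ≠ 0 := by
      rintro rfl
      exact hx (by rw [← hb, zero_pow hp.out.ne_zero])
    refine ⟨Additive.ofMul (Units.mk0 b hb0), ?_⟩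
    apply Additive.toMul.injective
    ext
    simpa using hb

@[simp] theorem cl_one : cl K p 1 = 0 := cl_eq_zero_iff.mpr (one_mem _)

theorem cl_inv (x : K) : cl K p x⁻¹ = - cl K p x := by
  by_cases hx : x = 0
  · subst hx; simp
  rw [eq_neg_iff_add_eq_zero, ← cl_mul (inv_ne_zero hx) hx, inv_mul_cancel₀ hx, cl_one]

theorem cl_div {x y : K} (hx : x ≠ 0) (hy : y ≠ 0) :
    cl K p (x / y) = cl K p x - cl K p y := by
  rw [div_eq_mul_inv, cl_mul hx (inv_ne_zero hy), cl_inv, sub_eq_add_neg]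

theorem cl_mul_of_mem {c x : K} (hc : c ∈ Fp K p) (hc0 : c ≠ 0) :
    cl K p (c * x) = cl K p x := by
  by_cases hx : x = 0
  · subst hx; simp
  rw [cl_mul hc0 hx, cl_eq_zero_iff.mpr hc, zero_add]

theorem cl_neg (x : K) : cl K p (-x) = cl K p x := by
  rw [← neg_one_mul, cl_mul_of_mem (neg_mem (one_mem _)) (by simp)]

theorem cl_sub_comm (x y : K) : cl K p (x - y) = cl K p (y - x) := by
  rw [← neg_sub, cl_neg]

theorem cl_eq_iff {x y : K} (hx : x ≠ 0) (hy : y ≠ 0) :
    cl K p x = cl K p y ↔ ∃ c ∈ Fp K p, c ≠ 0 ∧ x = c * y := by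
  constructor
  · intro h
    refine ⟨x / y, ?_, div_ne_zero hx hy, by field_simp⟩
    rw [← cl_eq_zero_iff, cl_div hx hy, h, sub_self]
  · rintro ⟨c, hc, hc0, rfl⟩
    exact cl_mul_of_mem hc hc0

theorem der_of_mem (D : Der K) {a : K} (ha : a ∈ Fp K p) : D a = 0 := by
  obtain ⟨b, rfl⟩ := mem_Fp.mp ha
  exact der_pow_char D b

theorem mem_Fp_of_der {a : K} (h : ∀ D : Der K, D a = 0) : a ∈ Fp K p := by
  by_contra hcon
  obtain ⟨D, -, hD⟩ := exists_der (Fp K p) pow_mem_Fp a hcon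
  rw [h D] at hD
  exact zero_ne_one hD

/-- Logarithmic derivative on units. -/
noncomputable def dlogU (D : Der K) : Additive Kˣ →+ K where
  toFun u := D ((Additive.toMul u : Kˣ) : K) / ((Additive.toMul u : Kˣ) : K)
  map_zero' := by simp
  map_add' u v := by
    simp only [toMul_add, Units.val_mul, Derivation.leibniz, smul_eq_mul]
    field_simp
    ring

variable (p) in
/-- Logarithmic derivative on `Kˣ / (Kˣ)^p`. -/
noncomputable def dlog (D : Der K) : KG K p →+ K :=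
  QuotientAddGroup.lift (pMultiples K p) (dlogU D) (by
    rintro x ⟨y, rfl⟩
    simp [AddMonoidHom.mem_ker])

theorem dlog_cl (D : Der K) (x : K) : dlog p D (cl K p x) = D x / x := by
  by_cases hx : x = 0
  · subst hx; simp
  rw [cl_of_ne hx]
  rfl

theorem dlog_add_der (D D' : Der K) (ξ : KG K p) :
    dlog p (D + D') ξ = dlog p D ξ + dlog p D' ξ := by
  obtain ⟨x, -, rfl⟩ := cl_surj ξ
  simp [dlog_cl, add_div]

theorem dlog_sub_der (D D' : Der K) (ξ : KG K p) :
    dlog p (D - D') ξ = dlog p D ξ - dlog p D' ξ := by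
  obtain ⟨x, -, rfl⟩ := cl_surj ξ
  simp [dlog_cl, sub_div]

theorem dlog_smul_der (c : K) (D : Der K) (ξ : KG K p) :
    dlog p (c • D) ξ = c * dlog p D ξ := by
  obtain ⟨x, -, rfl⟩ := cl_surj ξ
  simp [dlog_cl, mul_div_assoc]

theorem eq_zero_of_dlog {ξ : KG K p} (h : ∀ D : Der K, dlog p D ξ = 0) : ξ = 0 := by
  obtain ⟨x, hx, rfl⟩ := cl_surj ξ
  rw [cl_eq_zero_iff]
  apply mem_Fp_of_der
  intro D
  have := h D
  rw [dlog_cl] at this
  simpa [hx] using this

theorem eq_of_dlog {ξ η : KG K p} (h : ∀ D : Der K, dlog p D ξ = dlog p D η) : ξ = η := by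
  rw [← sub_eq_zero]
  apply eq_zero_of_dlog
  intro D
  rw [map_sub, h D, sub_self]

theorem exists_dlog_eq_one {ξ : KG K p} (h : ξ ≠ 0) : ∃ D : Der K, dlog p D ξ = 1 := by
  have : ∃ D : Der K, dlog p D ξ ≠ 0 := by
    by_contra hcon
    push Not at hcon
    exact h (eq_zero_of_dlog hcon)
  obtain ⟨D, hD⟩ := this
  exact ⟨(dlog p D ξ)⁻¹ • D, by rw [dlog_smul_der, inv_mul_cancel₀ hD]⟩

variable (K) in
/-- The cast of a residue class into the field. -/
noncomputable def zc (m : ZMod p) : K := ZMod.castHom (dvd_refl p) K m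

theorem dlog_zsmul (D : Der K) (m : ZMod p) (ξ : KG K p) :
    dlog p D (m • ξ) = zc K m * dlog p D ξ := by
  obtain ⟨n, rfl⟩ := ZMod.natCast_zmod_surjective m
  rw [Nat.cast_smul_eq_nsmul, map_nsmul, zc, map_natCast, nsmul_eq_mul]

theorem zc_injective : Function.Injective (zc K : ZMod p → K) :=
  (ZMod.castHom (dvd_refl p) K).injective

theorem zc_ne_zero {m : ZMod p} (hm : m ≠ 0) : zc K m ≠ 0 := by
  intro h
  apply hm
  apply zc_injective (K := K)
  rw [h, zc, map_zero]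

theorem exists_zc_of_pow {c : K} (h : c ^ p = c) : ∃ m : ZMod p, zc K m = c := by
  have h1 := (Subfield.mem_bot_iff_pow_eq_self K p).mpr h
  rw [mem_bot_iff_intCast p] at h1
  obtain ⟨n, hn⟩ := h1
  exact ⟨n, by rw [zc, map_intCast, hn]⟩

/-- Closedness of logarithmic forms. -/
theorem dlog_closed (ξ : KG K p) (D D' : Der K) :
    D (dlog p D' ξ) - D' (dlog p D ξ) = dlog p ⁅D, D'⁆ ξ := by
  obtain ⟨x, hx, rfl⟩ := cl_surj ξ
  simp only [dlog_cl, Derivation.commutator_apply, Derivation.leibniz_div, smul_eq_mul]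
  field_simp
  ring

/-- Parallel classes: their logarithmic differentials are proportional. -/
def Par (ξ η : KG K p) : Prop :=
  ∀ D D' : Der K, dlog p D ξ * dlog p D' η = dlog p D' ξ * dlog p D η

theorem Par.symm {ξ η : KG K p} (h : Par ξ η) : Par η ξ := fun D D' => by
  linear_combination h D' D

theorem Par.exists_coeff {ξ η : KG K p} (h : Par ξ η) (hξ : ξ ≠ 0) :
    ∃ φ : K, ∀ D : Der K, dlog p D η = φ * dlog p D ξ := by
  obtain ⟨θ, hθ⟩ := exists_dlog_eq_one hξ
  refine ⟨dlog p θ η, fun D => ?_⟩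
  have := h θ D
  rw [hθ] at this
  linear_combination this

theorem par_of_coeff {ξ η : KG K p} {φ : K} (h : ∀ D : Der K, dlog p D η = φ * dlog p D ξ) :
    Par ξ η := fun D D' => by
  rw [h D, h D']
  ring

theorem wedge_of_coeff {ξ η : KG K p} {φ : K}
    (h : ∀ D : Der K, dlog p D η = φ * dlog p D ξ) (D D' : Der K) :
    D φ * dlog p D' ξ = D' φ * dlog p D ξ := by
  have h1 := dlog_closed η D D'
  have h2 := dlog_closed ξ D D'
  rw [h D, h D', h ⁅D, D'⁆, ← h2, D.leibniz, D'.leibniz] at h1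
  simp only [smul_eq_mul] at h1
  linear_combination h1

theorem wedge_of_coeff' {ξ : KG K p} {φ φ₁ : K}
    (h : ∀ D : Der K, D φ = φ₁ * dlog p D ξ) (D D' : Der K) :
    D φ₁ * dlog p D' ξ = D' φ₁ * dlog p D ξ := by
  have h1 := Derivation.commutator_apply (D1 := D) (D2 := D') φ
  have h2 := dlog_closed ξ D D'
  rw [h D, h D', h ⁅D, D'⁆, ← h2, D.leibniz, D'.leibniz] at h1
  simp only [smul_eq_mul] at h1
  linear_combination -h1

/-- A constant proportionality factor between logarithmic forms lies in the prime field. -/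
theorem exists_zc_of_const {ξ η : KG K p} {c : K} (hξ : ξ ≠ 0)
    (h : ∀ D : Der K, dlog p D η = c * dlog p D ξ) (hc : ∀ D : Der K, D c = 0) :
    ∃ m : ZMod p, zc K m = c ∧ η = m • ξ := by
  obtain ⟨θ, hθ⟩ := exists_dlog_eq_one hξ
  obtain ⟨x, hx, rfl⟩ := cl_surj ξ
  obtain ⟨w, hw, rfl⟩ := cl_surj η
  obtain ⟨θ', hθ'⟩ := exists_der_pow (p := p) θ
  have hx1 : θ x = x := by
    rw [dlog_cl] at hθ
    field_simp at hθ
    exact hθ
  have hw1 : θ w = c * w := by
    have := h θ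
    rw [hθ, dlog_cl] at this
    field_simp at this
    linear_combination this
  have hxn : ∀ n : ℕ, (θ^[n]) x = x := fun n => Function.iterate_fixed hx1 n
  have hwn : ∀ n : ℕ, (θ^[n]) w = c ^ n * w := by
    intro n
    induction n with
    | zero => simp
    | succ n ih =>
      rw [Function.iterate_succ_apply', ih, θ.leibniz, θ.leibniz_pow, hc θ, hw1]
      simp only [smul_eq_mul, mul_zero, smul_zero]
      ring
  have hcp : c ^ p = c := by
    have := h θ'
    rw [dlog_cl, dlog_cl, hθ', hθ', hxn, hwn] at this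
    field_simp at this
    exact this
  obtain ⟨m, hm⟩ := exists_zc_of_pow hcp
  refine ⟨m, hm, eq_of_dlog fun D => ?_⟩
  rw [dlog_zsmul, hm, h D]

theorem exists_dual_of_not_par {ξ η : KG K p} (h : ¬ Par ξ η) :
    ∃ θ₁ θ₂ : Der K, dlog p θ₁ ξ = 1 ∧ dlog p θ₁ η = 0 ∧ dlog p θ₂ ξ = 0 ∧ dlog p θ₂ η = 1 := by
  unfold Par at h
  push Not at h
  obtain ⟨D, D', hne⟩ := h
  have hΔ : dlog p D ξ * dlog p D' η - dlog p D' ξ * dlog p D η ≠ 0 := sub_ne_zero.mpr hne
  set Δ := dlog p D ξ * dlog p D' η - dlog p D' ξ * dlog p D η with hΔdef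
  refine ⟨Δ⁻¹ • (dlog p D' η • D - dlog p D η • D'), Δ⁻¹ • (dlog p D ξ • D' - dlog p D' ξ • D),
    ?_, ?_, ?_, ?_⟩ <;>
  · simp only [dlog_smul_der, dlog_sub_der]
    field_simp
    ring

/-- `T` witnesses that `m • η` lies on the line through `1` and `m • ξ`. -/
def Good (ξ η : KG K p) (m : ZMod p) (T : K) : Prop :=
  T ≠ 0 ∧ T - 1 ≠ 0 ∧ cl K p T = m • ξ ∧ cl K p (T - 1) = m • η

theorem Good.dlog_eq {ξ η : KG K p} {m : ZMod p} {T : K} (h : Good ξ η m T) (hm : m ≠ 0)
    (D : Der K) : (T - 1) * dlog p D η = T * dlog p D ξ := by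
  obtain ⟨h0, h1, h2, h3⟩ := h
  have e1 := congrArg (dlog p D) h2
  have e2 := congrArg (dlog p D) h3
  rw [dlog_cl, dlog_zsmul] at e1 e2
  have hz : zc K m ≠ 0 := zc_ne_zero hm
  rw [map_sub, D.map_one_eq_zero, sub_zero] at e2
  field_simp at e1 e2
  apply mul_left_cancel₀ hz
  linear_combination e1 - e2

theorem Good.unique {ξ η : KG K p} {m m' : ZMod p} {T T' : K} (hξ : ξ ≠ 0)
    (h : Good ξ η m T) (hm : m ≠ 0) (h' : Good ξ η m' T') (hm' : m' ≠ 0) : T = T' ∧ m = m' := by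
  obtain ⟨θ, hθ⟩ := exists_dlog_eq_one hξ
  have e1 := h.dlog_eq hm θ
  have e2 := h'.dlog_eq hm' θ
  rw [hθ] at e1 e2
  have hT : T = T' := by
    linear_combination (T' - 1) * e1 - (T - 1) * e2
  refine ⟨hT, ?_⟩
  have e3 : m • ξ = m' • ξ := by rw [← h.2.2.1, hT, h'.2.2.1]
  have e4 := congrArg (dlog p θ) e3
  rw [dlog_zsmul, dlog_zsmul, hθ, mul_one, mul_one] at e4
  exact zc_injective e4

theorem good_of_const {ξ η : KG K p} {φ φ₁ c : K} (hξ : ξ ≠ 0)
    (hind : ∀ m : ZMod p, η ≠ m • ξ)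
    (h : ∀ D : Der K, dlog p D η = φ * dlog p D ξ) (h1 : ∀ D : Der K, D φ = φ₁ * dlog p D ξ)
    (hφ0 : φ ≠ 0) (hφ1 : φ - 1 ≠ 0) (hc : c * (φ * (φ - 1)) = -φ₁) (hcc : ∀ D : Der K, D c = 0) :
    ∃ m : ZMod p, zc K m = c ∧ m ≠ 0 ∧ Good ξ η m (φ / (φ - 1)) := by
  have hT : ∀ D : Der K, dlog p D (cl K p (φ / (φ - 1))) = c * dlog p D ξ := by
    intro D
    rw [cl_div hφ0 hφ1, map_sub, dlog_cl, dlog_cl, map_sub, D.map_one_eq_zero, sub_zero, h1 D]
    field_simp
    linear_combination (-dlog p D ξ) * hc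
  obtain ⟨m, hm, hmT⟩ := exists_zc_of_const hξ hT hcc
  have hT1 : φ / (φ - 1) - 1 = (φ - 1)⁻¹ := by
    field_simp
    ring
  refine ⟨m, hm, ?_, div_ne_zero hφ0 hφ1, by rw [hT1]; exact inv_ne_zero hφ1, hmT, ?_⟩
  · rintro rfl
    have hc0 : c = 0 := by rw [← hm, zc, map_zero]
    have hφ10 : φ₁ = 0 := by
      rw [hc0, zero_mul] at hc
      exact neg_eq_zero.mp hc.symm
    obtain ⟨m', -, hm'⟩ := exists_zc_of_const hξ h (fun D => by rw [h1 D, hφ10, zero_mul])
    exact hind m' hm'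
  · apply eq_of_dlog
    intro D
    rw [hT1, cl_inv, map_neg, dlog_cl, dlog_zsmul, hm, map_sub, D.map_one_eq_zero, sub_zero, h1 D,
      h D]
    field_simp
    linear_combination (-dlog p D ξ) * hc

/-- The configuration lemma. -/
theorem config {X Y P Q Z : KG K p} (hXY : ¬ Par X Y)
    (hP : ∀ m : ZMod p, P ≠ m • X) (hQ : ∀ m : ZMod p, Q ≠ m • Y)
    (h1 : Par X P) (h2 : Par Y Q) (h3 : Par (X - Y) (Z - Y)) (h4 : Par (P - Q) (Z - Q)) :
    ∃ m : ZMod p, m ≠ 0 ∧ (∃ T, Good X P m T) ∧ (∃ T, Good Y Q m T) := by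
  obtain ⟨θ₁, θ₂, a11, a12, a21, a22⟩ := exists_dual_of_not_par hXY
  have hX0 : X ≠ 0 := by
    rintro rfl
    simp at a11
  have hY0 : Y ≠ 0 := by
    rintro rfl
    simp at a22
  obtain ⟨φ, hφ⟩ := h1.exists_coeff hX0
  obtain ⟨ψ, hψ⟩ := h2.exists_coeff hY0
  have hφ0 : φ ≠ 0 := by
    rintro rfl
    exact hP 0 (eq_of_dlog fun D => by rw [hφ D]; simp)
  have hφ1 : φ - 1 ≠ 0 := by
    intro h
    have : φ = 1 := sub_eq_zero.mp h
    subst this
    exact hP 1 (eq_of_dlog fun D => by rw [hφ D]; simp)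
  have hψ0 : ψ ≠ 0 := by
    rintro rfl
    exact hQ 0 (eq_of_dlog fun D => by rw [hψ D]; simp)
  have hψ1 : ψ - 1 ≠ 0 := by
    intro h
    have : ψ = 1 := sub_eq_zero.mp h
    subst this
    exact hQ 1 (eq_of_dlog fun D => by rw [hψ D]; simp)
  have hXY0 : X - Y ≠ 0 := by
    intro h
    have := congrArg (dlog p θ₁) h
    rw [map_sub, a11, a12] at this
    simp at this
  have hPQ0 : P - Q ≠ 0 := by
    intro h
    have := congrArg (dlog p θ₁) h
    rw [map_sub, hφ, hψ, a11, a12] at this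
    exact hφ0 (by simpa using this)
  obtain ⟨s, hs⟩ := h3.exists_coeff hXY0
  obtain ⟨t, ht⟩ := h4.exists_coeff hPQ0
  -- relations between the coefficients
  have r1 : s = t * φ := by
    have e1 := hs θ₁
    have e2 := ht θ₁
    simp only [map_sub, hφ, hψ, a11, a12] at e1 e2
    linear_combination e2 - e1
  have r2 : 1 - s = (1 - t) * ψ := by
    have e1 := hs θ₂
    have e2 := ht θ₂
    simp only [map_sub, hφ, hψ, a21, a22] at e1 e2
    linear_combination e2 - e1
  have dφ : ∀ D : Der K, D φ = θ₁ φ * dlog p D X := by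
    intro D
    have := wedge_of_coeff hφ D θ₁
    rw [a11, mul_one] at this
    exact this
  have dψ : ∀ D : Der K, D ψ = θ₂ ψ * dlog p D Y := by
    intro D
    have := wedge_of_coeff hψ D θ₂
    rw [a22, mul_one] at this
    exact this
  have dφ₁ : ∀ D : Der K, D (θ₁ φ) = θ₁ (θ₁ φ) * dlog p D X := by
    intro D
    have := wedge_of_coeff' dφ D θ₁
    rw [a11, mul_one] at this
    exact this
  have dψ₁ : ∀ D : Der K, D (θ₂ ψ) = θ₂ (θ₂ ψ) * dlog p D Y := by
    intro D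
    have := wedge_of_coeff' dψ D θ₂
    rw [a22, mul_one] at this
    exact this
  have z1 : θ₂ φ = 0 := by rw [dφ, a21, mul_zero]
  have z2 : θ₁ ψ = 0 := by rw [dψ, a12, mul_zero]
  have ws : θ₂ s = -θ₁ s := by
    have := wedge_of_coeff hs θ₁ θ₂
    simp only [map_sub, a11, a12, a21, a22] at this
    linear_combination -this
  have q1 := congrArg θ₁ r1
  have q2 := congrArg θ₂ r1
  have q3 := congrArg θ₁ r2
  have q4 := congrArg θ₂ r2
  simp only [Derivation.leibniz, map_sub, Derivation.map_one_eq_zero, smul_eq_mul, z1, z2]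
    at q1 q2 q3 q4
  have r3 : t * (ψ - φ) = ψ - 1 := by linear_combination r2 + r1
  have r4 : t * θ₁ φ = θ₁ t * (ψ - φ) := by linear_combination -q1 - q3
  have r5 : (1 - t) * θ₂ ψ = θ₂ t * (ψ - φ) := by linear_combination -q2 - q4
  have r6 : θ₂ t * φ = -(θ₁ t * ψ) := by linear_combination ws - q2 + q3
  have key : θ₁ φ * (ψ * (ψ - 1)) = θ₂ ψ * (φ * (φ - 1)) := by
    linear_combination (ψ * (ψ - φ)) * r4 + (φ * (ψ - φ)) * r5 + (ψ - φ) ^ 2 * r6
      - (θ₁ φ * ψ - θ₂ ψ * φ) * r3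
  set c : K := -θ₁ φ / (φ * (φ - 1)) with hcdef
  have hc1 : c * (φ * (φ - 1)) = -θ₁ φ := by
    rw [hcdef]
    field_simp
  have hc2 : c * (ψ * (ψ - 1)) = -θ₂ ψ := by
    rw [hcdef]
    field_simp
    linear_combination -key
  have kX : ∀ D : Der K, dlog p D X = 0 → D c = 0 := by
    intro D hD
    have e := congrArg D hc1
    simp only [Derivation.leibniz, map_sub, map_neg, Derivation.map_one_eq_zero, smul_eq_mul,
      dφ D, dφ₁ D, hD] at e
    have : (φ * (φ - 1)) * D c = 0 := by linear_combination e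
    exact (mul_eq_zero.mp this).resolve_left (mul_ne_zero hφ0 hφ1)
  have kY : ∀ D : Der K, dlog p D Y = 0 → D c = 0 := by
    intro D hD
    have e := congrArg D hc2
    simp only [Derivation.leibniz, map_sub, map_neg, Derivation.map_one_eq_zero, smul_eq_mul,
      dψ D, dψ₁ D, hD] at e
    have : (ψ * (ψ - 1)) * D c = 0 := by linear_combination e
    exact (mul_eq_zero.mp this).resolve_left (mul_ne_zero hψ0 hψ1)
  have hcc : ∀ D : Der K, D c = 0 := by
    intro D
    have e1 := kY (D - dlog p D Y • θ₂) (by rw [dlog_sub_der, dlog_smul_der, a22]; ring)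
    have e2 := kX θ₂ a21
    simpa [e2] using e1
  obtain ⟨m, hm, hm0, hg⟩ := good_of_const hX0 hP hφ dφ hφ0 hφ1 hc1 hcc
  obtain ⟨m', hm', -, hg'⟩ := good_of_const hY0 hQ hψ dψ hψ0 hψ1 hc2 hcc
  have : m' = m := zc_injective (hm'.trans hm.symm)
  subst this
  exact ⟨m', hm0, ⟨_, hg⟩, ⟨_, hg'⟩⟩

end Crest.Agent.R9
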